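import Vale.Agent.P196.Tree.Fibred

namespace Vale.Agent.Results.P196.A1_Trees

open Classical in
/-- Amenability in the Folner form of the problem statement: for every finite `K` and `ε > 0`
there is a nonempty finite `D` with `|gD ∆ D| < ε |D|` for all `g ∈ K`. -/
def IsAmenable (G : Type) [Group G] : Prop :=
  ∀ (K : Finset G) (ε : ℝ), 0 < ε → ∃ D : Finset G, D.Nonempty ∧
    ∀ g ∈ K, ((symmDiff (D.image (fun d => g * d)) D).card : ℝ) < ε * D.card

/-- (1) Let `T` be a tree all of whose vertices have at most `Δ` neighbours and let `f : X → V(T)`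
be a map all of whose fibres have at most `C` points.  Every finitely presented simple amenable
group `S` of permutations of `X` each of which moves `f` a bounded distance in `T` is finite.
(2) In particular every finitely presented simple amenable group of bounded-displacement
permutations of the vertex set of `T` is finite. -/
theorem result :
    (∀ (V X : Type) (T : SimpleGraph V) (Δ C : ℕ) (f : X → V), T.IsTree →
      (∀ v, ∃ t : Finset V, t.card ≤ Δ ∧ ∀ w, T.Adj v w → w ∈ t) →
      (∀ v, ∃ t : Finset X, t.card ≤ C ∧ ∀ x, f x = v → x ∈ t) →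
      ∀ S : Subgroup (Equiv.Perm X), (∀ g ∈ S, ∃ N : ℕ, ∀ x, T.dist (f x) (f (g x)) ≤ N) →
        Group.IsFinitelyPresented S → IsSimpleGroup S → IsAmenable S → Finite S) ∧
    (∀ (V : Type) (T : SimpleGraph V) (Δ : ℕ), T.IsTree →
      (∀ v, ∃ t : Finset V, t.card ≤ Δ ∧ ∀ w, T.Adj v w → w ∈ t) →
      ∀ S : Subgroup (Equiv.Perm V), (∀ g ∈ S, ∃ N : ℕ, ∀ v, T.dist v (g v) ≤ N) →
        Group.IsFinitelyPresented S → IsSimpleGroup S → IsAmenable S → Finite S) := by
  have main : ∀ (V X : Type) (T : SimpleGraph V) (Δ C : ℕ) (f : X → V), T.IsTree →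
      (∀ v, ∃ t : Finset V, t.card ≤ Δ ∧ ∀ w, T.Adj v w → w ∈ t) →
      (∀ v, ∃ t : Finset X, t.card ≤ C ∧ ∀ x, f x = v → x ∈ t) →
      ∀ S : Subgroup (Equiv.Perm X), (∀ g ∈ S, ∃ N : ℕ, ∀ x, T.dist (f x) (f (g x)) ≤ N) →
        Group.IsFinitelyPresented S → IsSimpleGroup S → IsAmenable S → Finite S := by
    intro V X T Δ C f hT hdeg hC S hb hfp hS hA
    obtain ⟨g₀, hg₀⟩ := exists_ne (1 : S)
    refine Vale.Agent.P196.Tree.tree_fibred V X T hT Δ hdeg C f hC S hfp hS hA S.subtype g₀ ?_
      (fun g => hb g.1 g.2)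
    intro h1
    exact hg₀ (Subtype.ext h1)
  refine ⟨main, ?_⟩
  intro V T Δ hT hdeg S hb hfp hS hA
  refine main V V T Δ 1 id hT hdeg ?_ S hb hfp hS hA
  intro v
  exact ⟨{v}, by simp, fun x hx => by simpa using hx⟩

end Vale.Agent.Results.P196.A1_Trees
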