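import Mathlib

namespace Vale.Agent.Results.P196.NoGoClass

/-- `φ : G → H` is injective on the finite set `E` and preserves every product
`g * h` with `g, h, g * h ∈ E`. -/
def IsLocalEmbeddingOn {G H : Type} [Group G] [Group H] (E : Finset G) (φ : G → H) : Prop :=
  Set.InjOn φ (E : Set G) ∧ ∀ g ∈ E, ∀ h ∈ E, g * h ∈ E → φ (g * h) = φ g * φ h

/-- Locally embeddable into finite groups. -/
def IsLEF (G : Type) [Group G] : Prop :=
  ∀ E : Finset G, ∃ (H : Type) (_ : Group H) (_ : Finite H) (φ : G → H), IsLocalEmbeddingOn E φ

/-- Elementary amenable groups: the smallest class of groups containing all finite and all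
abelian groups and closed under isomorphisms, subgroups, quotients, extensions and
directed unions. -/
inductive ElemAmenable : (G : Type) → [Group G] → Prop
  | finite (G : Type) [Group G] (h : Finite G) : ElemAmenable G
  | abelian (G : Type) [Group G] (h : ∀ a b : G, a * b = b * a) : ElemAmenable G
  | iso (G G' : Type) [Group G] [Group G'] (e : G ≃* G') (h : ElemAmenable G) : ElemAmenable G'
  | subgroup (G : Type) [Group G] (K : Subgroup G) (h : ElemAmenable G) : ElemAmenable K
  | quotient (G : Type) [Group G] (N : Subgroup G) [N.Normal] (h : ElemAmenable G) :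
      ElemAmenable (G ⧸ N)
  | extension (G : Type) [Group G] (N : Subgroup G) [N.Normal]
      (hN : ElemAmenable N) (hQ : ElemAmenable (G ⧸ N)) : ElemAmenable G
  | directedUnion (G : Type) [Group G] (ι : Type) (K : ι → Subgroup G)
      (hdir : Directed (fun A B => A ≤ B) K) (hcov : ∀ g : G, ∃ i, g ∈ K i)
      (h : ∀ i, ElemAmenable (K i)) : ElemAmenable G

/-- The smallest class of groups containing all elementary amenable groups and closed under
group extensions and under local embeddability. -/
inductive Reachable : (G : Type) → [Group G] → Prop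
  | base (G : Type) [Group G] (h : ElemAmenable G) : Reachable G
  | extension (G : Type) [Group G] (N : Subgroup G) [N.Normal]
      (hN : Reachable N) (hQ : Reachable (G ⧸ N)) : Reachable G
  | locEmb (G : Type) [Group G] (H : Finset G → Type) [∀ E, Group (H E)]
      (hH : ∀ E, Reachable (H E)) (φ : ∀ E, G → H E)
      (hφ : ∀ E, IsLocalEmbeddingOn E (φ E)) : Reachable G

/-- Every finitely generated simple section of `H` is finite. -/
def NoSection (H : Type) [Group H] : Prop :=
  ∀ (K S : Type) [Group K] [Group S], Group.FG S → IsSimpleGroup S →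
    ∀ (j : K →* H) (p : K →* S), Function.Injective j → Function.Surjective p → Finite S

lemma noSection_finite (H : Type) [Group H] (h : Finite H) : NoSection H := by
  intro K S _ _ _ _ j p hj hp
  have : Finite K := Finite.of_injective j hj
  exact Finite.of_surjective p hp

lemma finite_of_comm_simple (S : Type) [Group S] (hS : IsSimpleGroup S)
    (hc : ∀ a b : S, a * b = b * a) : Finite S := by
  let _ : CommGroup S := { (inferInstance : Group S) with mul_comm := hc }
  have hp : (Nat.card S).Prime := CommGroup.is_simple_iff_prime_card.mp hS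
  exact Nat.finite_of_card_ne_zero hp.ne_zero

lemma noSection_abelian (H : Type) [Group H] (h : ∀ a b : H, a * b = b * a) : NoSection H := by
  intro K S _ _ _ hS j p hj hp
  apply finite_of_comm_simple S hS
  intro a b
  obtain ⟨a, rfl⟩ := hp a
  obtain ⟨b, rfl⟩ := hp b
  rw [← map_mul, ← map_mul]
  congr 1
  apply hj
  rw [map_mul, map_mul, h]

lemma noSection_of_injective (G G' : Type) [Group G] [Group G'] (e : G' →* G)
    (he : Function.Injective e) (h : NoSection G) : NoSection G' := by
  intro K S _ _ hfg hS j p hj hp
  exact h K S hfg hS (e.comp j) p (he.comp hj) hp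

lemma noSection_quotient (G : Type) [Group G] (N : Subgroup G) [N.Normal] (h : NoSection G) :
    NoSection (G ⧸ N) := by
  intro K S _ _ hfg hS j p hj hp
  let P : Subgroup (G × K) :=
    ((QuotientGroup.mk' N).comp (MonoidHom.fst G K)).eqLocus (j.comp (MonoidHom.snd G K))
  have hP : ∀ x : P, QuotientGroup.mk' N x.1.1 = j x.1.2 := fun x => x.2
  refine h P S hfg hS ((MonoidHom.fst G K).comp P.subtype) (p.comp ((MonoidHom.snd G K).comp P.subtype))
    ?_ ?_
  · intro a b hab
    have h1 : a.1.1 = b.1.1 := hab
    have h2 : j a.1.2 = j b.1.2 := by rw [← hP a, ← hP b, h1]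
    exact Subtype.ext (Prod.ext h1 (hj h2))
  · intro s
    obtain ⟨k, rfl⟩ := hp s
    obtain ⟨g, hg⟩ := QuotientGroup.mk'_surjective N (j k)
    exact ⟨⟨(g, k), hg⟩, rfl⟩

lemma noSection_extension (G : Type) [Group G] (N : Subgroup G) [N.Normal]
    (hN : NoSection N) (hQ : NoSection (G ⧸ N)) : NoSection G := by
  intro K S _ _ hfg hS j p hj hp
  let M : Subgroup K := N.comap j
  have hMn : M.Normal := inferInstance
  have hnorm : (M.map p).Normal := hMn.map p hp
  rcases hS.eq_bot_or_eq_top_of_normal _ hnorm with hbot | htop
  · have hle : M ≤ p.ker := by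
      intro x hx
      have : p x ∈ M.map p := Subgroup.mem_map_of_mem p hx
      rw [hbot] at this
      exact Subgroup.mem_bot.mp this
    refine hQ (K ⧸ M) S hfg hS (QuotientGroup.map M N j le_rfl) (QuotientGroup.lift M p hle) ?_ ?_
    · rw [injective_iff_map_eq_one]
      intro a ha
      obtain ⟨a, rfl⟩ := QuotientGroup.mk_surjective a
      rw [QuotientGroup.map_mk, QuotientGroup.eq_one_iff] at ha
      exact (QuotientGroup.eq_one_iff a).mpr ha
    · intro s
      obtain ⟨k, rfl⟩ := hp s
      exact ⟨QuotientGroup.mk k, rfl⟩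
  · refine hN M S hfg hS ((j.comp M.subtype).codRestrict N (fun x => x.2)) (p.comp M.subtype) ?_ ?_
    · intro a b hab
      have := congrArg Subtype.val hab
      exact Subtype.ext (hj this)
    · intro s
      have : s ∈ M.map p := by rw [htop]; exact Subgroup.mem_top s
      obtain ⟨k, hk, rfl⟩ := Subgroup.mem_map.mp this
      exact ⟨⟨k, hk⟩, rfl⟩

lemma noSection_directedUnion (G : Type) [Group G] (ι : Type) (A : ι → Subgroup G)
    (hdir : Directed (fun A B => A ≤ B) A) (hcov : ∀ g : G, ∃ i, g ∈ A i)
    (h : ∀ i, NoSection (A i)) : NoSection G := by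
  classical
  intro K S _ _ hfg hS j p hj hp
  obtain ⟨T, hT⟩ := Group.fg_def.mp hfg
  have key : ∀ T' : Finset S, ∃ i, ∀ t ∈ T', ∃ k : K, j k ∈ A i ∧ p k = t := by
    intro T'
    induction T' using Finset.induction_on with
    | empty =>
      obtain ⟨i, _⟩ := hcov 1
      exact ⟨i, by simp⟩
    | insert a T'' _ ih =>
      obtain ⟨i, hi⟩ := ih
      obtain ⟨k, rfl⟩ := hp a
      obtain ⟨i', hi'⟩ := hcov (j k)
      obtain ⟨l, hl1, hl2⟩ := hdir i i'
      refine ⟨l, ?_⟩
      intro t ht
      rcases Finset.mem_insert.mp ht with rfl | ht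
      · exact ⟨k, hl2 hi', rfl⟩
      · obtain ⟨k', hk', hk''⟩ := hi t ht
        exact ⟨k', hl1 hk', hk''⟩
  obtain ⟨i, hi⟩ := key T
  let M : Subgroup K := (A i).comap j
  refine h i M S hfg hS ((j.comp M.subtype).codRestrict (A i) (fun x => x.2)) (p.comp M.subtype) ?_ ?_
  · intro a b hab
    have := congrArg Subtype.val hab
    exact Subtype.ext (hj this)
  · rw [← MonoidHom.range_eq_top, eq_top_iff, ← hT, Subgroup.closure_le]
    intro t ht
    obtain ⟨k, hk, rfl⟩ := hi t ht
    exact ⟨⟨k, hk⟩, rfl⟩

lemma noSection_of_elemAmenable (G : Type) [Group G] (h : ElemAmenable G) : NoSection G := by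
  induction h with
  | finite G h => exact noSection_finite G h
  | abelian G h => exact noSection_abelian G h
  | iso G G' e _ ih => exact noSection_of_injective G G' e.symm.toMonoidHom e.symm.injective ih
  | subgroup G K _ ih => exact noSection_of_injective G K K.subtype K.subtype_injective ih
  | quotient G N _ ih => exact noSection_quotient G N ih
  | extension G N _ _ ihN ihQ => exact noSection_extension G N ihN ihQ
  | directedUnion G ι K hdir hcov _ ih => exact noSection_directedUnion G ι K hdir hcov ih

/-- Every finitely presented simple group that embeds in `H` is finite. -/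
def Good (H : Type) [Group H] : Prop :=
  ∀ (S : Type) [Group S], Group.IsFinitelyPresented S → IsSimpleGroup S →
    ∀ f : S →* H, Function.Injective f → Finite S

lemma good_base (H : Type) [Group H] (h : ElemAmenable H) : Good H := by
  intro S _ hfp hS f hf
  obtain ⟨n, π, hπ, _⟩ := hfp.out
  have hfg : Group.FG S := Group.fg_of_surjective hπ
  exact noSection_of_elemAmenable H h S S hfg hS f (MonoidHom.id S) hf Function.surjective_id

lemma good_extension (H : Type) [Group H] (N : Subgroup H) [N.Normal]
    (hN : Good N) (hQ : Good (H ⧸ N)) : Good H := by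
  intro S _ hfp hS f hf
  have hnorm : (N.comap f).Normal := inferInstance
  rcases hS.eq_bot_or_eq_top_of_normal _ hnorm with hbot | htop
  · refine hQ S hfp hS ((QuotientGroup.mk' N).comp f) ?_
    rw [injective_iff_map_eq_one]
    intro a ha
    have h1 : f a ∈ N := by
      simpa [QuotientGroup.eq_one_iff] using ha
    have h2 : a ∈ N.comap f := h1
    rw [hbot] at h2
    exact Subgroup.mem_bot.mp h2
  · have hmem : ∀ a, f a ∈ N := by
      intro a
      have : a ∈ N.comap f := by rw [htop]; exact Subgroup.mem_top a
      exact this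
    refine hN S hfp hS (f.codRestrict N hmem) ?_
    intro a b hab
    apply hf
    have := congrArg Subtype.val hab
    simpa using this

/-- For every list of elements there is a finite set such that every map which is
multiplicative on a finite set containing it respects the product of the list. -/
lemma exists_finset_list {G : Type} [Group G] [DecidableEq G] (L : List G) :
    ∃ E₀ : Finset G, ∀ (H : Type) [Group H] (E : Finset G) (φ : G → H), E₀ ⊆ E →
      (∀ g ∈ E, ∀ h ∈ E, g * h ∈ E → φ (g * h) = φ g * φ h) →
      φ L.prod = (L.map φ).prod := by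
  induction L with
  | nil =>
    refine ⟨{1}, ?_⟩
    intro H _ E φ hE hφ
    have h1 : (1 : G) ∈ E := hE (Finset.mem_singleton_self 1)
    have := hφ 1 h1 1 h1 (by simpa using h1)
    simp only [mul_one] at this
    simpa using this
  | cons a L ih =>
    obtain ⟨E₀, hE₀⟩ := ih
    refine ⟨E₀ ∪ {a, L.prod, a * L.prod}, ?_⟩
    intro H _ E φ hE hφ
    have hsub : E₀ ⊆ E := fun x hx => hE (Finset.mem_union_left _ hx)
    have ha : a ∈ E := hE (Finset.mem_union_right _ (by simp))
    have hL : L.prod ∈ E := hE (Finset.mem_union_right _ (by simp))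
    have haL : a * L.prod ∈ E := hE (Finset.mem_union_right _ (by simp))
    rw [List.prod_cons, List.map_cons, List.prod_cons, hφ a ha _ hL haL, hE₀ H E φ hsub hφ]

lemma good_locEmb (G : Type) [Group G] (H : Finset G → Type) [∀ E, Group (H E)]
    (hH : ∀ E, Good (H E)) (φ : ∀ E, G → H E)
    (hφ : ∀ E, IsLocalEmbeddingOn E (φ E)) : Good G := by
  classical
  intro S _ hfp hS f hf
  obtain ⟨n, π, hπ, R, hRfin, hR⟩ := hfp.out
  let ev : Fin n × Bool → G :=
    fun x => cond x.2 (f (π (FreeGroup.of x.1))) (f (π (FreeGroup.of x.1)))⁻¹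
  have hev : ∀ w : FreeGroup (Fin n), f (π w) = (w.toWord.map ev).prod := by
    intro w
    have h1 : (f.comp π) = FreeGroup.lift (fun i => f (π (FreeGroup.of i))) := by
      ext i
      simp
    have h2 : f (π w) =
        FreeGroup.lift (fun i => f (π (FreeGroup.of i))) (FreeGroup.mk w.toWord) := by
      rw [FreeGroup.mk_toWord, ← h1]
      rfl
    rw [h2, FreeGroup.lift_mk]
  choose EL hEL using fun L : List G => exists_finset_list L
  let E : Finset G :=
    ({1} ∪ Finset.univ.image (fun i : Fin n => f (π (FreeGroup.of i)))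
      ∪ Finset.univ.image (fun i : Fin n => (f (π (FreeGroup.of i)))⁻¹))
      ∪ hRfin.toFinset.biUnion (fun r => EL (r.toWord.map ev))
  obtain ⟨hinj, hmul⟩ := hφ E
  have h1E : (1 : G) ∈ E := by
    simp [E]
  have hgE : ∀ i : Fin n, f (π (FreeGroup.of i)) ∈ E := by
    intro i
    apply Finset.mem_union_left
    apply Finset.mem_union_left
    apply Finset.mem_union_right
    exact Finset.mem_image_of_mem _ (Finset.mem_univ i)
  have hgiE : ∀ i : Fin n, (f (π (FreeGroup.of i)))⁻¹ ∈ E := by
    intro i
    apply Finset.mem_union_left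
    apply Finset.mem_union_right
    exact Finset.mem_image_of_mem _ (Finset.mem_univ i)
  have hφ1 : φ E 1 = 1 := by
    have := hmul 1 h1E 1 h1E (by simpa using h1E)
    simp only [mul_one] at this
    simpa using this
  have hφinv : ∀ i : Fin n,
      φ E (f (π (FreeGroup.of i)))⁻¹ = (φ E (f (π (FreeGroup.of i))))⁻¹ := by
    intro i
    have := hmul _ (hgE i) _ (hgiE i) (by simpa using h1E)
    rw [mul_inv_cancel, hφ1] at this
    exact (inv_eq_of_mul_eq_one_right this.symm).symm
  let ψ : FreeGroup (Fin n) →* H E := FreeGroup.lift (fun i => φ E (f (π (FreeGroup.of i))))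
  have hψ : ∀ w : FreeGroup (Fin n), ψ w = ((w.toWord.map ev).map (φ E)).prod := by
    intro w
    have h2 : ψ w = ψ (FreeGroup.mk w.toWord) := by rw [FreeGroup.mk_toWord]
    rw [h2, FreeGroup.lift_mk, List.map_map]
    congr 1
    apply List.map_congr_left
    rintro ⟨i, b⟩ _
    cases b
    · simp [ev, hφinv]
    · simp [ev]
  have hψR : ∀ r ∈ R, ψ r = 1 := by
    intro r hr
    have hsub : EL (r.toWord.map ev) ⊆ E := by
      intro x hx
      apply Finset.mem_union_right
      rw [Finset.mem_biUnion]
      exact ⟨r, hRfin.mem_toFinset.mpr hr, hx⟩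
    have h3 := hEL (r.toWord.map ev) (H E) E (φ E) hsub hmul
    rw [hψ, ← h3, ← hev]
    have : π r = 1 := by
      have : r ∈ π.ker := by
        rw [← hR]
        exact Subgroup.subset_normalClosure hr
      exact this
    rw [this, map_one, hφ1]
  have hker : π.ker ≤ ψ.ker := by
    rw [← hR]
    exact Subgroup.normalClosure_le_normal (fun r hr => hψR r hr)
  let ψbar : S →* H E := π.liftOfSurjective hπ ⟨ψ, hker⟩
  have hψbar : ∀ w, ψbar (π w) = ψ w := by
    intro w
    exact MonoidHom.liftOfRightInverse_comp_apply _ _ _ _ _
  have hnorm : ψbar.ker.Normal := inferInstance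
  rcases hS.eq_bot_or_eq_top_of_normal _ hnorm with hbot | htop
  · exact hH E S ⟨n, π, hπ, R, hRfin, hR⟩ hS ψbar ((MonoidHom.ker_eq_bot_iff _).mp hbot)
  · exfalso
    have hgen : ∀ i : Fin n, π (FreeGroup.of i) = 1 := by
      intro i
      have h4 : π (FreeGroup.of i) ∈ ψbar.ker := by rw [htop]; exact Subgroup.mem_top _
      have h5 : ψbar (π (FreeGroup.of i)) = 1 := h4
      rw [hψbar] at h5
      have h6 : φ E (f (π (FreeGroup.of i))) = φ E 1 := by
        rw [hφ1, ← h5]
        simp [ψ]
      have h7 := hinj (hgE i) h1E h6
      apply hf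
      rw [h7, map_one]
    have htriv : π = 1 := by
      ext i
      simp [hgen]
    obtain ⟨a, ha⟩ := exists_ne (1 : S)
    obtain ⟨w, rfl⟩ := hπ a
    apply ha
    rw [htriv]
    rfl

lemma good_of_reachable (G : Type) [Group G] (h : Reachable G) : Good G := by
  induction h with
  | base G h => exact good_base G h
  | extension G N _ _ ihN ihQ => exact good_extension G N ihN ihQ
  | locEmb G H _ φ hφ ih => exact good_locEmb G H ih φ hφ

lemma reachable_of_injective (G K : Type) [Group G] [Group K] (f : K →* G)
    (hf : Function.Injective f) (h : Reachable G) : Reachable K :=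
  Reachable.locEmb K (fun _ => G) (fun _ => h) (fun _ => f)
    (fun _ => ⟨hf.injOn, fun g _ h _ _ => map_mul f g h⟩)

lemma reachable_of_isLEF (G : Type) [Group G] (h : IsLEF G) : Reachable G := by
  choose H hgrp hfin φ hφ using h
  exact Reachable.locEmb G H (fun E => Reachable.base _ (ElemAmenable.finite _ (hfin E))) φ hφ

lemma reachable_of_locally (G : Type) [Group G]
    (h : ∀ K : Subgroup G, K.FG → Reachable K) : Reachable G := by
  classical
  refine Reachable.locEmb G (fun E => Subgroup.closure (E : Set G))
    (fun E => h _ ⟨E, rfl⟩)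
    (fun E g => if hg : g ∈ Subgroup.closure (E : Set G) then ⟨g, hg⟩ else 1) ?_
  intro E
  have hmem : ∀ g ∈ E, g ∈ Subgroup.closure (E : Set G) := fun g hg => Subgroup.subset_closure hg
  constructor
  · intro a ha b hb hab
    simp only [dif_pos (hmem a ha), dif_pos (hmem b hb)] at hab
    exact congrArg Subtype.val hab
  · intro a ha b hb hab
    simp only [dif_pos (hmem a ha), dif_pos (hmem b hb), dif_pos (hmem _ hab)]
    rfl

/-- No infinite finitely presented simple group lies in the class `Reachable`, a class that
contains all elementary amenable and all LEF groups and is closed under extensions, local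
embeddability, subgroups and passage from finitely generated subgroups to the whole group. -/
theorem result :
    (∀ (G : Type) [Group G], Reachable G → Group.IsFinitelyPresented G → IsSimpleGroup G →
      Finite G) ∧
    (∀ (G : Type) [Group G], IsLEF G → Reachable G) ∧
    (∀ (G : Type) [Group G] (K : Subgroup G), Reachable G → Reachable K) ∧
    (∀ (G : Type) [Group G], (∀ K : Subgroup G, K.FG → Reachable K) → Reachable G) := by
  refine ⟨?_, reachable_of_isLEF, ?_, reachable_of_locally⟩
  · intro G _ h hfp hS
    exact good_of_reachable G h G hfp hS (MonoidHom.id G) Function.injective_id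
  · intro G _ K h
    exact reachable_of_injective G K K.subtype K.subtype_injective h

end Vale.Agent.Results.P196.NoGoClass
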