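import Vale.Agent.Results.P196.A0_Wobbling
import Vale.Agent.Results.P196.A1_Trees
import Vale.Agent.Results.P196.NoGoClass

namespace Vale.Agent.Results.P196.A00_Combined

open Vale.Agent.Results.P196.A0_Wobbling Vale.Agent.Results.P196.A1_Trees
  Vale.Agent.Results.P196.NoGoClass

/-- Conjunction of three no-go theorems for infinite finitely presented simple (amenable) groups:
(1) bounded-displacement groups over the integers, (2) subgroups of topological full groups of one
homeomorphism, (3) amenable bounded-displacement groups over bounded-degree trees,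
(4)-(7) the class `Reachable`. -/
theorem result :
    (∀ (X : Type) (o : X → ℤ) (C : ℕ),
      (∀ n : ℤ, ∃ t : Finset X, t.card ≤ C ∧ ∀ x, o x = n → x ∈ t) →
      ∀ S : Subgroup (Equiv.Perm X), (∀ g ∈ S, ∃ N : ℤ, ∀ x, |o (g x) - o x| ≤ N) →
        Group.IsFinitelyPresented S → IsSimpleGroup S → Finite S) ∧
    (∀ (X : Type) [TopologicalSpace X] (φ : X ≃ₜ X) (S : Subgroup (X ≃ₜ X)),
      (∀ g ∈ S, InFullGroup φ g) →
      Group.IsFinitelyPresented S → IsSimpleGroup S → Finite S) ∧
    (∀ (V X : Type) (T : SimpleGraph V) (Δ C : ℕ) (f : X → V), T.IsTree →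
      (∀ v, ∃ t : Finset V, t.card ≤ Δ ∧ ∀ w, T.Adj v w → w ∈ t) →
      (∀ v, ∃ t : Finset X, t.card ≤ C ∧ ∀ x, f x = v → x ∈ t) →
      ∀ S : Subgroup (Equiv.Perm X), (∀ g ∈ S, ∃ N : ℕ, ∀ x, T.dist (f x) (f (g x)) ≤ N) →
        Group.IsFinitelyPresented S → IsSimpleGroup S → IsAmenable S → Finite S) ∧
    (∀ (G : Type) [Group G], Reachable G → Group.IsFinitelyPresented G → IsSimpleGroup G →
      Finite G) ∧
    (∀ (G : Type) [Group G], IsLEF G → Reachable G) ∧
    (∀ (G : Type) [Group G] (K : Subgroup G), Reachable G → Reachable K) ∧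
    (∀ (G : Type) [Group G], (∀ K : Subgroup G, K.FG → Reachable K) → Reachable G) :=
  ⟨A0_Wobbling.result.1, A0_Wobbling.result.2.2, A1_Trees.result.1, NoGoClass.result⟩

end Vale.Agent.Results.P196.A00_Combined
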