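import Mathlib

namespace Vale.Agent.Results.P196.A0_Wobbling

open Function

/-- Reduction of an integer into the window `[a, a + q)` modulo `q`. -/
def red (a q y : ℤ) : ℤ := a + (y - a) % q

lemma red_mem (a q y : ℤ) (hq : 0 < q) : a ≤ red a q y ∧ red a q y < a + q := by
  unfold red
  have h1 := Int.emod_nonneg (y - a) hq.ne'
  have h2 := Int.emod_lt_of_pos (y - a) hq
  constructor <;> linarith

lemma red_of_mem (a q y : ℤ) (h1 : a ≤ y) (h2 : y < a + q) : red a q y = y := by
  unfold red
  rw [Int.emod_eq_of_lt (by linarith) (by linarith)]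
  ring

lemma red_add (a q y : ℤ) : red a q (y + q) = red a q y := by
  unfold red
  have : y + q - a = (y - a) + q := by ring
  rw [this, Int.add_emod_right]

lemma red_sub (a q y : ℤ) : red a q (y - q) = red a q y := by
  have := red_add a q (y - q)
  simpa using this.symm

lemma red_red_add (a q y d : ℤ) : red a q (red a q y + d) = red a q (y + d) := by
  unfold red
  have h1 : a + (y - a) % q + d - a = (y - a) % q + d := by ring
  have h2 : y + d - a = (y - a) + d := by ring
  rw [h1, h2, Int.emod_add_emod]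

/-- Action of a word (list of letters), the head of the list acting last. -/
def wact {α : Type} (act : α → ℤ → ℤ) : List α → ℤ → ℤ
  | [], y => y
  | l :: w, y => act l (wact act w y)

lemma wact_disp {α : Type} (act : α → ℤ → ℤ) (N : ℤ) (hN : ∀ l y, |act l y - y| ≤ N) :
    ∀ (w : List α) (y : ℤ), |wact act w y - y| ≤ w.length * N := by
  intro w
  induction w with
  | nil => intro y; simp [wact]
  | cons l w ih =>
    intro y
    have h1 := ih y
    have h2 := hN l (wact act w y)
    have h3 : wact act (l :: w) y - y = (act l (wact act w y) - wact act w y) + (wact act w y - y) := by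
      simp only [wact]; ring
    rw [h3]
    calc |(act l (wact act w y) - wact act w y) + (wact act w y - y)|
        ≤ |act l (wact act w y) - wact act w y| + |wact act w y - y| := abs_add_le _ _
      _ ≤ N + w.length * N := add_le_add h2 h1
      _ = ((l :: w).length : ℤ) * N := by
          simp only [List.length_cons]; push_cast; ring

lemma local_eq {α : Type} (act : α → ℤ → ℤ) (ρ a q : ℤ) (hρq : ρ < q)
    (htype : ∀ l t, |t| ≤ ρ → act l (a + t) - (a + t) = act l (a + q + t) - (a + q + t))
    (l : α) (y : ℤ) (h1 : a - ρ ≤ y) (h2 : y ≤ a + q + ρ) :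
    act l (red a q y) - red a q y = act l y - y := by
  rcases lt_or_ge y a with hya | hya
  · have hr : red a q y = y + q := by
      rw [← red_add]
      exact red_of_mem a q (y + q) (by linarith) (by linarith)
    have ht := htype l (y - a) (by rw [abs_le]; constructor <;> linarith)
    have e1 : a + (y - a) = y := by ring
    have e2 : a + q + (y - a) = y + q := by ring
    rw [e1, e2] at ht
    rw [hr, ht]
  · rcases lt_or_ge y (a + q) with hyb | hyb
    · rw [red_of_mem a q y hya hyb]
    · have hr : red a q y = y - q := by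
        rw [← red_sub]
        exact red_of_mem a q (y - q) (by linarith) (by linarith)
      have ht := htype l (y - a - q) (by rw [abs_le]; constructor <;> linarith)
      have e1 : a + (y - a - q) = y - q := by ring
      have e2 : a + q + (y - a - q) = y := by ring
      rw [e1, e2] at ht
      rw [hr, ht]

lemma core {α : Type} (act : α → ℤ → ℤ) (N ρ a q : ℤ) (hN : ∀ l y, |act l y - y| ≤ N)
    (hρq : ρ < q)
    (htype : ∀ l t, |t| ≤ ρ → act l (a + t) - (a + t) = act l (a + q + t) - (a + q + t)) :
    ∀ (w : List α) (y : ℤ), a - ρ + w.length * N ≤ y → y ≤ a + q + ρ - w.length * N →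
      wact (fun l i => red a q (act l i)) w (red a q y) = red a q (wact act w y) := by
  intro w
  induction w with
  | nil => intro y _ _; simp [wact]
  | cons l w ih =>
    intro y h1 h2
    have hN0 : 0 ≤ N := le_trans (abs_nonneg _) (hN l 0)
    simp only [List.length_cons] at h1 h2
    push_cast at h1 h2
    have ih' := ih y (by nlinarith) (by nlinarith)
    have hd := abs_le.mp (wact_disp act N hN w y)
    simp only [wact]
    rw [ih']
    have hl := local_eq act ρ a q hρq htype l (wact act w y) (by nlinarith [hd.1]) (by nlinarith [hd.2])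
    have e : act l (red a q (wact act w y))
        = red a q (wact act w y) + (act l (wact act w y) - wact act w y) := by linarith
    rw [e, red_red_add]
    congr 1
    ring

lemma exists_window {α : Type} [Finite α] (act : α → ℤ → ℤ) (N ρ : ℤ) (hρ : 0 ≤ ρ)
    (hN : ∀ l y, |act l y - y| ≤ N)
    (D : Set ℤ) (hD : D.Nonempty) (hfix : ∀ i, i ∉ D → ∀ l, act l i = i) (K : ℤ) (hK0 : 0 ≤ K) :
    ∃ a q c : ℤ, K < q ∧ c ∈ D ∧ a ≤ c ∧ c < a + q ∧
      ∀ l t, |t| ≤ ρ → act l (a + t) - (a + t) = act l (a + q + t) - (a + q + t) := by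
  by_cases hfin : D.Finite
  · obtain ⟨hi, hhi⟩ := hfin.bddAbove
    obtain ⟨lo, hlo⟩ := hfin.bddBelow
    obtain ⟨c, hc⟩ := hD
    have h1 : lo ≤ c := hlo hc
    have h2 : c ≤ hi := hhi hc
    refine ⟨lo - ρ - 1, hi - lo + 2 * ρ + 2 + K, c, by linarith, hc, by linarith, by linarith, ?_⟩
    intro l t ht
    have ht' := abs_le.mp ht
    have n1 : lo - ρ - 1 + t ∉ D := by
      intro hmem
      have := hlo hmem
      linarith [ht'.2]
    have n2 : lo - ρ - 1 + (hi - lo + 2 * ρ + 2 + K) + t ∉ D := by
      intro hmem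
      have := hhi hmem
      linarith [ht'.1]
    rw [hfix _ n1 l, hfix _ n2 l]
    simp
  · have hinf : D.Infinite := hfin
    let τ : D → (α × Set.Icc (-ρ) ρ → Set.Icc (-N) N) :=
      fun i p => ⟨act p.1 (i + p.2) - (i + p.2), abs_le.mp (hN _ _)⟩
    have : Infinite D := hinf.to_subtype
    obtain ⟨y, hy⟩ := Finite.exists_infinite_fiber τ
    obtain ⟨x0⟩ : Nonempty (τ ⁻¹' {y}) := inferInstance
    have hfar : ∃ x1 : (τ ⁻¹' {y}), K < |(x1.1.1 : ℤ) - x0.1.1| := by
      by_contra hcon
      push Not at hcon
      have hfin2 : Finite (τ ⁻¹' {y}) := by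
        refine Finite.of_injective
          (fun x => (⟨x.1.1, by
            have := abs_le.mp (hcon x)
            constructor <;> linarith [this.1, this.2]⟩ :
              Set.Icc (x0.1.1 - K) (x0.1.1 + K))) ?_
        intro u v huv
        have : u.1.1 = v.1.1 := by simpa using congrArg Subtype.val huv
        exact Subtype.ext (Subtype.ext this)
      exact not_finite (τ ⁻¹' {y})
    obtain ⟨x1, hx1⟩ := hfar
    have key : ∀ u v : D, τ u = τ v → K < v.1 - u.1 →
        ∃ a q c : ℤ, K < q ∧ c ∈ D ∧ a ≤ c ∧ c < a + q ∧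
        ∀ l t, |t| ≤ ρ → act l (a + t) - (a + t) = act l (a + q + t) - (a + q + t) := by
      intro u v huv hK
      refine ⟨u.1, v.1 - u.1, u.1, hK, u.2, le_refl _, by linarith, ?_⟩
      intro l t ht
      have := congrFun huv (l, ⟨t, abs_le.mp ht⟩)
      have h3 := congrArg Subtype.val this
      simp only [τ] at h3
      have e : u.1 + (v.1 - u.1) + t = v.1 + t := by ring
      rw [e]
      exact h3
    have e0 : τ x0.1 = y := x0.2
    have e1 : τ x1.1 = y := x1.2
    rcases le_or_gt 0 ((x1.1.1 : ℤ) - x0.1.1) with hs | hs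
    · rw [abs_of_nonneg hs] at hx1
      exact key x0.1 x1.1 (e0.trans e1.symm) hx1
    · rw [abs_of_neg hs] at hx1
      exact key x1.1 x0.1 (e1.trans e0.symm) (by linarith)

lemma finite_of_hom (G H : Type) [Group G] [Group H] [Finite H] (hS : IsSimpleGroup G)
    (f : G →* H) (g₀ : G) (h : f g₀ ≠ 1) : Finite G := by
  have hnorm : f.ker.Normal := inferInstance
  rcases hS.eq_bot_or_eq_top_of_normal _ hnorm with hbot | htop
  · exact Finite.of_injective f ((MonoidHom.ker_eq_bot_iff _).mp hbot)
  · exfalso
    apply h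
    have : g₀ ∈ f.ker := by rw [htop]; exact Subgroup.mem_top _
    exact this

/-- The letter inverse to a given letter. -/
def linv {n : ℕ} (p : Fin n × Bool) : Fin n × Bool := (p.1, !p.2)

lemma red_ne (a q c d : ℤ) (h1 : a ≤ c) (h2 : c < a + q) (hd : d ≠ c) (hdq : |d - c| < q) :
    red a q d ≠ c := by
  intro h
  have hc : red a q c = c := red_of_mem a q c h1 h2
  have h3 : (d - a) % q = (c - a) % q := by
    have : red a q d = red a q c := by rw [h, hc]
    unfold red at this
    linarith
  rw [Int.emod_eq_emod_iff_emod_sub_eq_zero] at h3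
  have h4 : q ∣ d - c := by
    have : d - a - (c - a) = d - c := by ring
    rw [this] at h3
    exact Int.dvd_of_emod_eq_zero h3
  have := Int.eq_zero_of_abs_lt_dvd h4 hdq
  apply hd
  linarith

theorem wobbling_aux (G : Type) [Group G] (hfp : Group.IsFinitelyPresented G)
    (hS : IsSimpleGroup G) (ψ : G →* Equiv.Perm ℤ) (g₀ : G) (hg₀ : ψ g₀ ≠ 1)
    (hb : ∀ g, ∃ N : ℤ, ∀ i, |ψ g i - i| ≤ N) : Finite G := by
  classical
  obtain ⟨n, π, hπ, R, hRfin, hR⟩ := hfp.out
  let s : Fin n → Equiv.Perm ℤ := fun j => ψ (π (FreeGroup.of j))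
  let ev : Fin n × Bool → Equiv.Perm ℤ := fun x => cond x.2 (s x.1) (s x.1)⁻¹
  let act : Fin n × Bool → ℤ → ℤ := fun l y => ev l y
  -- uniform displacement bound
  choose Nf hNf using hb
  obtain ⟨N₀, hNub⟩ := (Set.finite_range (fun j : Fin n => Nf (π (FreeGroup.of j)))).bddAbove
  let N : ℤ := max N₀ 0
  have hN0 : 0 ≤ N := le_max_right _ _
  have hs : ∀ j i, |s j i - i| ≤ N := by
    intro j i
    exact le_trans (hNf _ i) (le_trans (hNub ⟨j, rfl⟩) (le_max_left _ _))
  have hN : ∀ l y, |act l y - y| ≤ N := by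
    rintro ⟨j, b⟩ y
    cases b
    · have := hs j ((s j)⁻¹ y)
      simp only [Equiv.Perm.coe_inv, Equiv.apply_symm_apply] at this
      rw [abs_sub_comm] at this
      exact this
    · exact hs j y
  -- bound on the length of the relators
  obtain ⟨L₀, hL₀⟩ := (hRfin.image (fun r => r.toWord.length)).bddAbove
  let L : ℕ := max L₀ 2
  have hL : ∀ r ∈ R, r.toWord.length ≤ L := by
    intro r hr
    exact le_trans (hL₀ ⟨r, hr, rfl⟩) (le_max_left _ _)
  have hL2 : 2 ≤ L := le_max_right _ _
  -- words
  have hlift : ψ.comp π = FreeGroup.lift s := by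
    ext j
    simp [s]
  have hW : ∀ (w : List (Fin n × Bool)) (y : ℤ), wact act w y = ψ (π (FreeGroup.mk w)) y := by
    intro w y
    have : ψ (π (FreeGroup.mk w)) = (w.map ev).prod := by
      have h1 : ψ (π (FreeGroup.mk w)) = (ψ.comp π) (FreeGroup.mk w) := rfl
      rw [h1, hlift, FreeGroup.lift_mk]
    rw [this]
    clear this
    induction w with
    | nil => simp [wact]
    | cons l w ih =>
      simp only [wact, List.map_cons, List.prod_cons, Equiv.Perm.mul_apply]
      rw [ih]
  -- the set of moved points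
  let D : Set ℤ := {i | ∃ j, s j i ≠ i}
  have hD : D.Nonempty := by
    by_contra hne
    rw [Set.not_nonempty_iff_eq_empty] at hne
    have hs1 : ∀ j, s j = 1 := by
      intro j
      ext i
      by_contra hi
      have : i ∈ D := ⟨j, hi⟩
      rw [hne] at this
      exact this
    have h1 : ψ.comp π = 1 := by
      rw [hlift]
      ext j
      simp [hs1]
    obtain ⟨w, rfl⟩ := hπ g₀
    apply hg₀
    have : (ψ.comp π) w = 1 := by rw [h1]; rfl
    exact this
  have hfix : ∀ i, i ∉ D → ∀ l, act l i = i := by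
    intro i hi
    have hi' : ∀ j, s j i = i := by
      intro j
      by_contra h
      exact hi ⟨j, h⟩
    rintro ⟨j, b⟩
    cases b
    · change (s j)⁻¹ i = i
      rw [Equiv.Perm.inv_eq_iff_eq, hi' j]
    · exact hi' j
  let ρ : ℤ := L * N
  have hρ : 0 ≤ ρ := by positivity
  obtain ⟨a, q, c, hKq, hcD, hac, hcq, htype⟩ :=
    exists_window act N ρ hρ hN D hD hfix (ρ + N) (by positivity)
  have hρq : ρ < q := by linarith
  have hNq : N < q := by linarith
  have hq : 0 < q := by linarith
  have hcore := core act N ρ a q hN hρq htype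
  let m : Fin n × Bool → ℤ → ℤ := fun l i => red a q (act l i)
  have hlen : ∀ w : List (Fin n × Bool), w.length ≤ L → ∀ i, a ≤ i → i < a + q →
      wact m w i = red a q (wact act w i) := by
    intro w hw i h1 h2
    have hw' : (w.length : ℤ) * N ≤ ρ := by
      have : (w.length : ℤ) ≤ L := by exact_mod_cast hw
      exact mul_le_mul_of_nonneg_right this hN0
    have := hcore w i (by linarith) (by linarith)
    rw [red_of_mem a q i h1 h2] at this
    exact this
  have hactinv : ∀ l y, act l (act (linv l) y) = y := by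
    rintro ⟨j, b⟩ y
    cases b
    · change (s j)⁻¹ (s j y) = y
      simp
    · change s j ((s j)⁻¹ y) = y
      simp
  have hminv : ∀ l i, a ≤ i → i < a + q → m l (m (linv l) i) = i := by
    intro l i h1 h2
    have := hlen [l, linv l] (by simpa using hL2) i h1 h2
    simp only [wact] at this
    rw [this, hactinv, red_of_mem a q i h1 h2]
  have hlinv : ∀ l : Fin n × Bool, linv (linv l) = l := by
    rintro ⟨j, b⟩
    simp [linv]
  let T : Type := Set.Ico a (a + q)
  let P : Fin n × Bool → Equiv.Perm T := fun l =>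
    { toFun := fun i => ⟨m l i.1, red_mem a q _ hq⟩
      invFun := fun i => ⟨m (linv l) i.1, red_mem a q _ hq⟩
      left_inv := by
        intro i
        apply Subtype.ext
        have := hminv (linv l) i.1 i.2.1 i.2.2
        rw [hlinv] at this
        exact this
      right_inv := by
        intro i
        apply Subtype.ext
        exact hminv l i.1 i.2.1 i.2.2 }
  let Φ : FreeGroup (Fin n) →* Equiv.Perm T := FreeGroup.lift (fun j => P (j, true))
  have hΦ : ∀ (w : List (Fin n × Bool)) (i : T), ((Φ (FreeGroup.mk w) i : T) : ℤ) = wact m w i.1 := by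
    intro w
    rw [FreeGroup.lift_mk]
    induction w with
    | nil => intro i; simp [wact]
    | cons l w ih =>
      intro i
      simp only [wact, List.map_cons, List.prod_cons, Equiv.Perm.mul_apply]
      rw [← ih i]
      obtain ⟨j, b⟩ := l
      cases b
      · rfl
      · rfl
  have hΦR : ∀ r ∈ R, Φ r = 1 := by
    intro r hr
    have hπr : π r = 1 := by
      have : r ∈ π.ker := by
        rw [← hR]
        exact Subgroup.subset_normalClosure hr
      exact this
    ext i
    have h1 : Φ r = Φ (FreeGroup.mk r.toWord) := by rw [FreeGroup.mk_toWord]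
    rw [h1, hΦ, hlen _ (hL r hr) i.1 i.2.1 i.2.2, hW, FreeGroup.mk_toWord, hπr, map_one]
    simp only [Equiv.Perm.coe_one, id_eq]
    exact red_of_mem a q i.1 i.2.1 i.2.2
  have hker : π.ker ≤ Φ.ker := by
    rw [← hR]
    exact Subgroup.normalClosure_le_normal (fun r hr => hΦR r hr)
  let Φbar : G →* Equiv.Perm T := π.liftOfSurjective hπ ⟨Φ, hker⟩
  have hΦbar : ∀ w, Φbar (π w) = Φ w := by
    intro w
    exact MonoidHom.liftOfRightInverse_comp_apply _ _ _ _ _
  obtain ⟨j₀, hj₀⟩ := hcD
  have : Finite T := (Set.finite_Ico a (a + q)).to_subtype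
  refine finite_of_hom G (Equiv.Perm T) hS Φbar (π (FreeGroup.of j₀)) ?_
  rw [hΦbar]
  intro h1
  have h2 : ((Φ (FreeGroup.of j₀) ⟨c, hac, hcq⟩ : T) : ℤ) = c := by rw [h1]; rfl
  have h3 : ((Φ (FreeGroup.of j₀) ⟨c, hac, hcq⟩ : T) : ℤ) = red a q (s j₀ c) := by
    simp only [Φ, FreeGroup.lift_apply_of]
    rfl
  rw [h3] at h2
  exact red_ne a q c (s j₀ c) hac hcq hj₀ (lt_of_le_of_lt (hs j₀ c) hNq) h2

theorem orbit_version (X : Type) (φ : Equiv.Perm X) (G : Type) [Group G]
    (hfp : Group.IsFinitelyPresented G) (hS : IsSimpleGroup G)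
    (ψ : G →* Equiv.Perm X) (g₀ : G) (hg₀ : ψ g₀ ≠ 1)
    (hb : ∀ g, ∃ N : ℤ, ∀ x, ∃ k : ℤ, |k| ≤ N ∧ ψ g x = (φ ^ k) x) : Finite G := by
  classical
  obtain ⟨x₀, hx₀⟩ : ∃ x₀, ψ g₀ x₀ ≠ x₀ := by
    by_contra h
    push Not at h
    exact hg₀ (Equiv.ext h)
  let o : ℤ → X := fun k => (φ ^ k) x₀
  have ho0 : o 0 = x₀ := by simp [o]
  have hoadd : ∀ k n : ℤ, (φ ^ k) (o n) = o (k + n) := by
    intro k n
    simp only [o]
    rw [zpow_add, Equiv.Perm.mul_apply]
  choose Nf hNf using hb
  have hstep : ∀ g n, ∃ k : ℤ, |k| ≤ Nf g ∧ ψ g (o n) = o (k + n) := by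
    intro g n
    obtain ⟨k, hk, hk2⟩ := hNf g (o n)
    exact ⟨k, hk, by rw [hk2, hoadd]⟩
  by_cases hinj : Function.Injective o
  · let θ : G → ℤ → ℤ := fun g n => Function.invFun o (ψ g (o n))
    have hθ : ∀ g n, o (θ g n) = ψ g (o n) := by
      intro g n
      obtain ⟨k, _, hk⟩ := hstep g n
      exact Function.invFun_eq ⟨k + n, hk.symm⟩
    have hθmul : ∀ g h n, θ (g * h) n = θ g (θ h n) := by
      intro g h n
      apply hinj
      rw [hθ, hθ, hθ, map_mul, Equiv.Perm.mul_apply]
    have hθone : ∀ n, θ 1 n = n := by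
      intro n
      apply hinj
      rw [hθ, map_one, Equiv.Perm.one_apply]
    let Θ : G →* Equiv.Perm ℤ :=
      { toFun := fun g =>
          { toFun := θ g
            invFun := θ g⁻¹
            left_inv := by
              intro n
              rw [← hθmul, inv_mul_cancel, hθone]
            right_inv := by
              intro n
              rw [← hθmul, mul_inv_cancel, hθone] }
        map_one' := by
          ext n
          exact hθone n
        map_mul' := by
          intro g h
          ext n
          exact hθmul g h n }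
    refine wobbling_aux G hfp hS Θ g₀ ?_ ?_
    · intro h1
      have h2 : θ g₀ 0 = 0 := by
        have : Θ g₀ 0 = 0 := by rw [h1]; rfl
        exact this
      apply hx₀
      have := hθ g₀ 0
      rw [h2, ho0] at this
      exact this.symm
    · intro g
      refine ⟨Nf g, ?_⟩
      intro n
      obtain ⟨k, hk, hk2⟩ := hstep g n
      have : θ g n = k + n := by
        apply hinj
        rw [hθ, hk2]
      change |θ g n - n| ≤ Nf g
      rw [this]
      simpa using hk
  · -- periodic orbit
    have hper : ∃ p : ℤ, p ≠ 0 ∧ o p = x₀ := by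
      unfold Function.Injective at hinj
      push Not at hinj
      obtain ⟨u, v, huv, hne⟩ := hinj
      refine ⟨-v + u, ?_, ?_⟩
      · intro h
        apply hne
        linarith
      · rw [← hoadd, huv, hoadd]
        simp [ho0]
    obtain ⟨p, hp0, hp⟩ := hper
    have hmul : ∀ j : ℤ, o (p * j) = x₀ := by
      intro j
      simp only [o]
      rw [zpow_mul]
      exact Equiv.Perm.zpow_apply_eq_self_of_apply_eq_self hp j
    have hfin : (Set.range o).Finite := by
      apply Set.Finite.subset ((Set.finite_Icc (0 : ℤ) |p|).image o)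
      rintro _ ⟨k, rfl⟩
      refine ⟨k % p, ⟨Int.emod_nonneg k hp0, (Int.emod_lt_abs k hp0).le⟩, ?_⟩
      have h1 : k = k % p + p * (k / p) := (Int.emod_add_mul_ediv k p).symm
      conv_rhs => rw [h1]
      rw [← hoadd, hmul]
    have hinv : ∀ g x, x ∈ Set.range o → ψ g x ∈ Set.range o := by
      rintro g _ ⟨n, rfl⟩
      obtain ⟨k, _, hk⟩ := hstep g n
      exact ⟨k + n, hk.symm⟩
    let Θ : G →* Equiv.Perm (Set.range o) :=
      { toFun := fun g =>
          { toFun := fun x => ⟨ψ g x.1, hinv g x.1 x.2⟩
            invFun := fun x => ⟨ψ g⁻¹ x.1, hinv g⁻¹ x.1 x.2⟩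
            left_inv := by
              intro x
              apply Subtype.ext
              simp
            right_inv := by
              intro x
              apply Subtype.ext
              simp }
        map_one' := by
          ext x
          simp
        map_mul' := by
          intro g h
          ext x
          simp }
    have : Finite (Set.range o) := hfin.to_subtype
    refine finite_of_hom G _ hS Θ g₀ ?_
    intro h1
    apply hx₀
    have h2 : (Θ g₀ ⟨x₀, 0, ho0⟩ : Set.range o) = ⟨x₀, 0, ho0⟩ := by rw [h1]; rfl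
    exact congrArg Subtype.val h2

theorem quasi_line (X : Type) (o : X → ℤ) (C : ℕ)
    (hC : ∀ n : ℤ, ∃ t : Finset X, t.card ≤ C ∧ ∀ x, o x = n → x ∈ t)
    (G : Type) [Group G] (hfp : Group.IsFinitelyPresented G) (hS : IsSimpleGroup G)
    (ψ : G →* Equiv.Perm X) (g₀ : G) (hg₀ : ψ g₀ ≠ 1)
    (hb : ∀ g, ∃ N : ℤ, ∀ x, |o (ψ g x) - o x| ≤ N) : Finite G := by
  classical
  choose t ht1 ht2 using hC
  let e : ℤ → X → ℕ := fun n x => if h : x ∈ t n then ((t n).equivFin ⟨x, h⟩).val else 0
  have he1 : ∀ n x, x ∈ t n → e n x < C := by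
    intro n x hx
    simp only [e, dif_pos hx]
    exact lt_of_lt_of_le (Fin.is_lt _) (ht1 n)
  have he2 : ∀ n x y, x ∈ t n → y ∈ t n → e n x = e n y → x = y := by
    intro n x y hx hy hxy
    simp only [e, dif_pos hx, dif_pos hy] at hxy
    have := (t n).equivFin.injective (Fin.ext hxy)
    exact congrArg Subtype.val this
  let o' : X → ℤ := fun x => (C : ℤ) * o x + e (o x) x
  have hidx : ∀ x, (e (o x) x : ℤ) < C := by
    intro x
    exact_mod_cast he1 (o x) x (ht2 _ x rfl)
  have hidx0 : ∀ x, (0 : ℤ) ≤ e (o x) x := fun x => by positivity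
  have hinj : Function.Injective o' := by
    intro x y hxy
    simp only [o'] at hxy
    have h1 := hidx x
    have h2 := hidx y
    have h3 := hidx0 x
    have h4 := hidx0 y
    have hoxy : o x = o y := by
      rcases lt_trichotomy (o x) (o y) with h | h | h
      · exfalso
        nlinarith
      · exact h
      · exfalso
        nlinarith
    rw [hoxy] at hxy
    have h5 : e (o y) x = e (o y) y := by
      have : (e (o y) x : ℤ) = e (o y) y := by linarith
      exact_mod_cast this
    exact he2 (o y) x y (ht2 _ x hoxy) (ht2 _ y rfl) h5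
  let ι : X ↪ ℤ := ⟨o', hinj⟩
  refine wobbling_aux G hfp hS ((Equiv.Perm.viaEmbeddingHom ι).comp ψ) g₀ ?_ ?_
  · intro h1
    apply hg₀
    apply Equiv.Perm.viaEmbeddingHom_injective ι
    rw [map_one]
    exact h1
  · intro g
    obtain ⟨N, hN⟩ := hb g
    refine ⟨C * |N| + C, ?_⟩
    intro i
    change |(Equiv.Perm.viaEmbeddingHom ι (ψ g)) i - i| ≤ _
    rw [Equiv.Perm.viaEmbeddingHom_apply]
    by_cases hi : i ∈ Set.range ι
    · obtain ⟨x, rfl⟩ := hi
      rw [Equiv.Perm.viaEmbedding_apply]
      change |o' (ψ g x) - o' x| ≤ _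
      simp only [o']
      have h1 := hidx x
      have h2 := hidx (ψ g x)
      have h3 := hidx0 x
      have h4 := hidx0 (ψ g x)
      have h5 := abs_le.mp (le_trans (hN x) (le_abs_self N))
      have hC0 : (0 : ℤ) ≤ C := by positivity
      rw [abs_le]
      constructor
      · nlinarith [h5.1]
      · nlinarith [h5.2]
    · rw [Equiv.Perm.viaEmbedding_apply_of_notMem _ _ _ hi]
      simp only [sub_self, abs_zero]
      positivity

/-- Membership in the topological full group of the homeomorphism `φ`: there is a finite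
clopen decomposition of the space such that `g` agrees with a power of `φ` on each piece. -/
def InFullGroup {X : Type} [TopologicalSpace X] (φ g : X ≃ₜ X) : Prop :=
  ∃ (k : ℕ) (U : Fin k → Set X) (n : Fin k → ℤ),
    (∀ i, IsClopen (U i)) ∧ (∀ i j, i ≠ j → Disjoint (U i) (U j)) ∧ (⋃ i, U i) = Set.univ ∧
    ∀ i, ∀ x ∈ U i, g x = (φ ^ n i) x

/-- The underlying permutation of a homeomorphism, as a group homomorphism. -/
def toPermHom (X : Type) [TopologicalSpace X] : (X ≃ₜ X) →* Equiv.Perm X where
  toFun g := g.toEquiv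
  map_one' := rfl
  map_mul' _ _ := rfl

theorem full_group (X : Type) [TopologicalSpace X] (φ : X ≃ₜ X) (S : Subgroup (X ≃ₜ X))
    (hSφ : ∀ g ∈ S, InFullGroup φ g) (hfp : Group.IsFinitelyPresented S)
    (hS : IsSimpleGroup S) : Finite S := by
  obtain ⟨g₀, hg₀⟩ := exists_ne (1 : S)
  refine orbit_version X (toPermHom X φ) S hfp hS ((toPermHom X).comp S.subtype) g₀ ?_ ?_
  · intro h1
    apply hg₀
    apply Subtype.ext
    ext x
    have := congrArg (fun f : Equiv.Perm X => f x) h1
    exact this
  · intro g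
    obtain ⟨k, U, n, _, _, hcov, hg⟩ := hSφ g.1 g.2
    obtain ⟨N, hN⟩ := (Set.finite_range (fun i : Fin k => |n i|)).bddAbove
    refine ⟨N, ?_⟩
    intro x
    have hx : x ∈ ⋃ i, U i := by rw [hcov]; exact Set.mem_univ x
    obtain ⟨i, hi⟩ := Set.mem_iUnion.mp hx
    refine ⟨n i, hN ⟨i, rfl⟩, ?_⟩
    rw [← map_zpow]
    exact hg i x hi

/-- (1) A finitely presented simple group acting faithfully on a set `X` that carries a
boundedly-finite-to-one integer coordinate `o` which every group element changes by a bounded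
amount is finite.  (2) Every finitely presented simple group of bounded-displacement
permutations of the integers is finite.  (3) For every homeomorphism `φ` of every topological
space, every finitely presented simple subgroup of the topological full group of `φ` is
finite. -/
theorem result :
    (∀ (X : Type) (o : X → ℤ) (C : ℕ),
      (∀ n : ℤ, ∃ t : Finset X, t.card ≤ C ∧ ∀ x, o x = n → x ∈ t) →
      ∀ S : Subgroup (Equiv.Perm X), (∀ g ∈ S, ∃ N : ℤ, ∀ x, |o (g x) - o x| ≤ N) →
        Group.IsFinitelyPresented S → IsSimpleGroup S → Finite S) ∧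
    (∀ S : Subgroup (Equiv.Perm ℤ), (∀ g ∈ S, ∃ N : ℤ, ∀ i, |g i - i| ≤ N) →
      Group.IsFinitelyPresented S → IsSimpleGroup S → Finite S) ∧
    (∀ (X : Type) [TopologicalSpace X] (φ : X ≃ₜ X) (S : Subgroup (X ≃ₜ X)),
      (∀ g ∈ S, InFullGroup φ g) →
      Group.IsFinitelyPresented S → IsSimpleGroup S → Finite S) := by
  refine ⟨?_, ?_, ?_⟩
  · intro X o C hC S hb hfp hS
    obtain ⟨g₀, hg₀⟩ := exists_ne (1 : S)
    refine quasi_line X o C hC S hfp hS S.subtype g₀ ?_ (fun g => hb g.1 g.2)
    intro h1
    exact hg₀ (Subtype.ext h1)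
  · intro S hb hfp hS
    obtain ⟨g₀, hg₀⟩ := exists_ne (1 : S)
    refine wobbling_aux S hfp hS S.subtype g₀ ?_ (fun g => hb g.1 g.2)
    intro h1
    exact hg₀ (Subtype.ext h1)
  · intro X _ φ S hSφ hfp hS
    exact full_group X φ S hSφ hfp hS

end Vale.Agent.Results.P196.A0_Wobbling
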